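import Vale.Agent.P069.Defs
import Vale.Agent.P069.Separable

open Vale.Agent.P069

namespace Vale.Agent.Results.P069.Main

/-- There is a separable reflexive infinite-dimensional real Banach space whose norm is
asymptotically midpoint uniformly convex (with modulus at least `√(1 + t²/12) - 1`) and which has
no equivalent asymptotically uniformly convex norm. -/
theorem result : ∃ (X : Type) (_ : NormedAddCommGroup X) (_ : NormedSpace ℝ X),
    CompleteSpace X ∧ TopologicalSpace.SeparableSpace X ∧ ¬ FiniteDimensional ℝ X ∧
    IsReflexiveSpace X ∧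
    (∀ t : ℝ, 0 < t →
      ((√(1 + t ^ 2 / 12) - 1 : ℝ) : EReal) ≤ amucModulus (normSeminorm ℝ X) t) ∧
    AMUCRenormable X ∧ ¬ AUCRenormable X :=
  ⟨Vale.Agent.P069.X, inferInstance, inferInstance, inferInstance, separable_X, infinite_dim_X,
    reflexive_X, fun _ ht => amucModulus_ge ht, amucRenormable_X, not_auc_X⟩

end Vale.Agent.Results.P069.Main
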