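import Vale.Agent.P069.Literal
import Vale.Agent.P069.Separable

open Vale.Agent.P069

namespace Vale.Agent.Results.P069.Quantitative

variable {X : Type} [NormedAddCommGroup X] [NormedSpace ℝ X]

/-- `F` is a closed subspace of finite codimension. -/
def FiniteCodim (F : Submodule ℝ X) : Prop :=
  IsClosed (F : Set X) ∧ FiniteDimensional ℝ (X ⧸ F)

/-- For every `x` with `N x = 1` there is a closed subspace `F` of finite codimension with
`N (x + t y) ≥ 1 + δ` for all `y ∈ F` with `N y = 1`. -/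
def AUCBound (N : Seminorm ℝ X) (t δ : ℝ) : Prop :=
  ∀ x : X, N x = 1 → ∃ F : Submodule ℝ X, FiniteCodim F ∧
    ∀ y ∈ F, N y = 1 → 1 + δ ≤ N (x + t • y)

/-- The same with the maximum of `N (x + t y)` and `N (x - t y)`. -/
def AMUCBound (N : Seminorm ℝ X) (t δ : ℝ) : Prop :=
  ∀ x : X, N x = 1 → ∃ F : Submodule ℝ X, FiniteCodim F ∧
    ∀ y ∈ F, N y = 1 → 1 + δ ≤ max (N (x + t • y)) (N (x - t • y))

/-- `c ‖x‖ ≤ N x ≤ C ‖x‖` for all `x`. -/
def Between (N : Seminorm ℝ X) (c C : ℝ) : Prop :=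
  ∀ x : X, c * ‖x‖ ≤ N x ∧ N x ≤ C * ‖x‖

/-- `Y` is reflexive: the canonical map into the bidual is onto. -/
def IsReflexive (Y : Type) [NormedAddCommGroup Y] [NormedSpace ℝ Y] : Prop :=
  Function.Surjective (NormedSpace.inclusionInDoubleDual ℝ Y)

/-- A separable reflexive infinite-dimensional real Banach space whose norm is asymptotically
midpoint uniformly convex, while every equivalent norm `N` fails to be asymptotically uniformly
convex, at every `t ≤ c / (2 C)` where `c ‖x‖ ≤ N x ≤ C ‖x‖`. -/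
theorem result : ∃ (X : Type) (_ : NormedAddCommGroup X) (_ : NormedSpace ℝ X),
    CompleteSpace X ∧ TopologicalSpace.SeparableSpace X ∧ ¬ FiniteDimensional ℝ X ∧
    IsReflexive X ∧
    (∀ t : ℝ, 0 < t → ∀ δ : ℝ, δ < √(1 + t ^ 2 / 12) - 1 → AMUCBound (normSeminorm ℝ X) t δ) ∧
    (∀ (N : Seminorm ℝ X) (c C : ℝ), 0 < c → 0 < C → Between N c C →
      ∀ t : ℝ, 0 < t → t ≤ c / (2 * C) → ∀ δ : ℝ, 0 < δ → ¬ AUCBound N t δ) := by
  refine ⟨Vale.Agent.P069.X, inferInstance, inferInstance, inferInstance, separable_X,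
    infinite_dim_X, reflexive_X, ?_, ?_⟩
  · intro t ht δ hδ x hx
    have hpos : 0 < 1 + t / 6 + t ^ 2 / 12 := by positivity
    have hε : 0 < √(1 + t ^ 2 / 12) - 1 - δ := by linarith
    rw [coe_normSeminorm] at hx
    obtain ⟨F, hF, hF'⟩ := amuc_estimate x hx ht (div_pos hε hpos)
    refine ⟨F, ⟨hF.1, hF.2⟩, fun y hy hy1 => ?_⟩
    rw [coe_normSeminorm] at hy1
    have h := hF' y hy hy1
    rw [div_mul_cancel₀ _ hpos.ne'] at h
    simp only [coe_normSeminorm]
    linarith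
  · intro N c C hc hC hN t ht htc δ hδ hA
    obtain ⟨x, hx, hx2⟩ := auc_fails N hc hC hN ht htc hδ
    obtain ⟨F, hF, hF'⟩ := hA x hx
    obtain ⟨y, hy, hy1, hy2⟩ := hx2 F hF.1 hF.2
    exact absurd (hF' y hy hy1) (not_le.mpr hy2)

end Vale.Agent.Results.P069.Quantitative
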